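/-
helper64 -- S0356 squad (track D), package ZP: zonotope pairing and the polar inclusions
(generalises the S0355 package F, `Crest/Agent/Helper64/S0355/Polar.lean`, to one block in any
dimension).

* `zonotope_pairing`: for `w ∈ Z ι` put `c' = max (-1) (max w - 1)`; then `|c'| ≤ 1`,
  `|w i - c'| ≤ 1`, hence `∑ w i v i = ∑ (w i - c') v i + c' ∑ v i ≤ ∑ |v i| + |∑ v i|`; scale.
* `polar_simplex_subset`: both sides of `⟪x,u⟫ ≤ c·Sfun u` are positively homogeneous in `u`,
  so the condition on the unit sphere is the condition for every `u`; test `u = ± e_i`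
  (`Sfun = 2`) and `u = e_i - e_j` (`Sfun ≤ 2`).
* `volume_polar_lt_top`: test `u = ± e_j`; the polar set lies in a ball.
-/
import Crest.Agent.Helper28.S0356.Defs

set_option autoImplicit false
open MeasureTheory
open scoped ENNReal Pointwise

namespace Crest.Agent.Helper64.S0356

open Crest.Agent.Helper28.S0355 (sweep Z)
open Crest.Agent.Helper28.S0356

/-- `Sfun` is absolutely homogeneous. -/
theorem Sfun_smul {ι : Type} [Fintype ι] (a : ℝ) (u : ι → ℝ) : Sfun (a • u) = |a| * Sfun u := by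
  unfold Sfun
  simp only [Pi.smul_apply, smul_eq_mul, abs_mul, ← Finset.mul_sum]
  ring

theorem Sfun_zero {ι : Type} [Fintype ι] : Sfun (0 : ι → ℝ) = 0 := by
  simp [Sfun]

theorem inner_eq_sum {n : ℕ} (x u : En n) : inner ℝ x u = ∑ i, x i * u i := by
  simp [PiLp.inner_apply, mul_comm]

/-- One block: `∑_B w i u i ≤ ∑_B |u i| + |∑_B u i|`. -/
theorem block_bound {ι : Type} (B : Finset ι) (w u : ι → ℝ) (h2 : ∀ i ∈ B, |w i| ≤ 2)
    (hd : ∀ i ∈ B, ∀ j ∈ B, w i - w j ≤ 2) :
    ∑ i ∈ B, w i * u i ≤ ∑ i ∈ B, |u i| + |∑ i ∈ B, u i| := by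
  obtain ⟨c, hc, hwc⟩ : ∃ c : ℝ, |c| ≤ 1 ∧ ∀ i ∈ B, |w i - c| ≤ 1 := by
    rcases B.eq_empty_or_nonempty with rfl | hne
    · exact ⟨0, by simp, by simp⟩
    · obtain ⟨iM, hiM, hM⟩ := B.exists_max_image w hne
      refine ⟨max (-1) (w iM - 1), ?_, fun i hi => ?_⟩
      · have := h2 iM hiM
        rw [abs_le] at this ⊢
        constructor
        · exact le_max_left _ _
        · apply max_le <;> linarith
      · have h1 := hM i hi
        have h3 := hd iM hiM i hi
        have h4 := h2 i hi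
        rw [abs_le] at h4 ⊢
        constructor
        · have : max (-1) (w iM - 1) ≤ w i + 1 := max_le (by linarith) (by linarith)
          linarith
        · have : w iM - 1 ≤ max (-1) (w iM - 1) := le_max_right _ _
          linarith
  calc ∑ i ∈ B, w i * u i = ∑ i ∈ B, (w i - c) * u i + c * ∑ i ∈ B, u i := by
        rw [Finset.mul_sum, ← Finset.sum_add_distrib]
        apply Finset.sum_congr rfl
        intros; ring
    _ ≤ ∑ i ∈ B, |u i| + |∑ i ∈ B, u i| := by
        apply add_le_add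
        · apply Finset.sum_le_sum
          intro i hi
          calc (w i - c) * u i ≤ |(w i - c) * u i| := le_abs_self _
            _ = |w i - c| * |u i| := abs_mul _ _
            _ ≤ 1 * |u i| := mul_le_mul_of_nonneg_right (hwc i hi) (abs_nonneg _)
            _ = |u i| := one_mul _
        · calc c * ∑ i ∈ B, u i ≤ |c * ∑ i ∈ B, u i| := le_abs_self _
            _ = |c| * |∑ i ∈ B, u i| := abs_mul _ _
            _ ≤ 1 * |∑ i ∈ B, u i| := mul_le_mul_of_nonneg_right hc (abs_nonneg _)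
            _ = |∑ i ∈ B, u i| := one_mul _

/-- For `w ∈ Z ι`: `∑ w i * v i ≤ Sfun v` (`c' = max (-1) (max w - 1)`), then scale. -/
theorem zonotope_pairing {ι : Type} [Fintype ι] (c : ℝ) (hc : 0 ≤ c) (z : ι → ℝ)
    (hz : z ∈ c • Z ι) (v : ι → ℝ) : ∑ i, z i * v i ≤ c * Sfun v := by
  rw [Set.mem_smul_set] at hz
  obtain ⟨w, hw, rfl⟩ := hz
  obtain ⟨hw1, hw2⟩ := hw
  have e : ∑ i, (c • w) i * v i = c * ∑ i, w i * v i := by
    rw [Finset.mul_sum]
    apply Finset.sum_congr rfl
    intro i _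
    show c * w i * v i = c * (w i * v i)
    ring
  rw [e]
  apply mul_le_mul_of_nonneg_left _ hc
  unfold Sfun
  exact block_bound Finset.univ w v (fun i _ => hw1 i) (fun i _ j _ => hw2 i j)

theorem sum_abs_single {n : ℕ} (i : Fin n) (a : ℝ) :
    ∑ k, |(Pi.single i a : Fin n → ℝ) k| = |a| := by
  rw [Finset.sum_eq_single i]
  · simp
  · intro b _ hb
    simp [hb]
  · intro h
    exact absurd (Finset.mem_univ i) h

theorem sum_single {n : ℕ} (i : Fin n) (a : ℝ) :
    ∑ k, (Pi.single i a : Fin n → ℝ) k = a := by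
  rw [Finset.sum_pi_single']
  simp

theorem Sfun_single {n : ℕ} (i : Fin n) (a : ℝ) :
    Sfun (Pi.single i a : Fin n → ℝ) = 2 * |a| := by
  unfold Sfun
  rw [sum_abs_single, sum_single]
  ring

theorem Sfun_single_sub_le {n : ℕ} (i j : Fin n) :
    Sfun (Pi.single i 1 - Pi.single j 1 : Fin n → ℝ) ≤ 2 := by
  unfold Sfun
  have h1 : ∑ k, |((Pi.single i 1 - Pi.single j 1 : Fin n → ℝ)) k| ≤ 2 := by
    calc ∑ k, |((Pi.single i 1 - Pi.single j 1 : Fin n → ℝ)) k|
        ≤ ∑ k, (|(Pi.single i (1:ℝ) : Fin n → ℝ) k| + |(Pi.single j (1:ℝ) : Fin n → ℝ) k|) := by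
          apply Finset.sum_le_sum
          intro k _
          rw [Pi.sub_apply]
          exact abs_sub _ _
      _ = 2 := by
          rw [Finset.sum_add_distrib, sum_abs_single, sum_abs_single]
          norm_num
  have h2 : ∑ k, (Pi.single i 1 - Pi.single j 1 : Fin n → ℝ) k = 0 := by
    simp only [Pi.sub_apply, Finset.sum_sub_distrib, sum_single]
    ring
  rw [h2]
  simpa using h1

/-- Homogenisation: the condition on the unit sphere implies the condition for every `u`. -/
theorem forall_of_mem_iInter_sphere {n : ℕ} (c : ℝ) (x : En n)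
    (hx : x ∈ (⋂ u ∈ Metric.sphere (0 : En n) 1,
      {x : En n | inner ℝ x u ≤ c * Sfun (WithLp.ofLp u)})) :
    ∀ u : Fin n → ℝ, ∑ i, x i * u i ≤ c * Sfun u := by
  simp only [Set.mem_iInter, Set.mem_ofPred_eq, mem_sphere_zero_iff_norm] at hx
  intro u
  by_cases hu : (WithLp.toLp 2 u : En n) = 0
  · have hu0 : u = 0 := by
      have := congrArg WithLp.ofLp hu
      simpa using this
    subst hu0
    simp [Sfun_zero]
  · have hn : 0 < ‖(WithLp.toLp 2 u : En n)‖ := norm_pos_iff.mpr hu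
    set r : ℝ := ‖(WithLp.toLp 2 u : En n)‖ with hr_def
    have h1 := hx (r⁻¹ • (WithLp.toLp 2 u : En n)) (by
      rw [norm_smul, norm_inv, norm_norm, inv_mul_cancel₀ hn.ne'])
    rw [inner_smul_right, inner_eq_sum] at h1
    have h2 : WithLp.ofLp (r⁻¹ • (WithLp.toLp 2 u : En n)) = r⁻¹ • u := rfl
    rw [h2, Sfun_smul, abs_of_pos (inv_pos.mpr hn)] at h1
    have h3 := mul_le_mul_of_nonneg_left h1 hn.le
    have e1 : r * (r⁻¹ * ∑ i, x i * (WithLp.toLp 2 u : En n) i) = ∑ i, x i * u i := by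
      rw [← mul_assoc, mul_inv_cancel₀ hn.ne', one_mul]
    have e2 : r * (c * (r⁻¹ * Sfun u)) = c * Sfun u := by
      field_simp
    rw [e1, e2] at h3
    exact h3

/-- Test directions `± e_j` and `e_i - e_j` (homogenise first). -/
theorem polar_simplex_subset (n : ℕ) (c : ℝ) (hc : 0 < c) :
    (⋂ u ∈ Metric.sphere (0 : En n) 1, {x : En n | inner ℝ x u ≤ c * Sfun (WithLp.ofLp u)}) ⊆
      WithLp.toLp 2 '' (c • Z (Fin n)) := by
  intro x hx
  have h := forall_of_mem_iInter_sphere c x hx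
  refine ⟨WithLp.ofLp x, ?_, rfl⟩
  rw [Set.mem_smul_set]
  refine ⟨c⁻¹ • WithLp.ofLp x, ?_, ?_⟩
  · have hk : ∀ t : ℝ, c⁻¹ * (c * t) = t := fun t => by
      rw [← mul_assoc, inv_mul_cancel₀ hc.ne', one_mul]
    refine ⟨fun i => ?_, fun i j => ?_⟩
    · have e : ∀ a : ℝ, ∑ k, x k * (Pi.single i a : Fin n → ℝ) k = x i * a := by
        intro a
        simp [Pi.single_apply]
      have h1 := h (Pi.single i 1)
      have h2 := h (Pi.single i (-1))
      rw [e, Sfun_single] at h1 h2
      have h5 : c⁻¹ * (x i * 1) ≤ c⁻¹ * (c * (2 * |(1:ℝ)|)) :=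
        mul_le_mul_of_nonneg_left h1 (inv_pos.mpr hc).le
      have h6 : c⁻¹ * (x i * (-1)) ≤ c⁻¹ * (c * (2 * |(-1:ℝ)|)) :=
        mul_le_mul_of_nonneg_left h2 (inv_pos.mpr hc).le
      rw [hk] at h5 h6
      simp only [abs_one, abs_neg, mul_one] at h5 h6
      show |c⁻¹ * x i| ≤ 2
      rw [abs_le]
      constructor <;> linarith
    · have h1 := h (Pi.single i 1 - Pi.single j 1)
      have h2 : ∑ k, x k * (Pi.single i 1 - Pi.single j 1 : Fin n → ℝ) k = x i - x j := by
        simp [mul_sub, Finset.sum_sub_distrib, Pi.single_apply]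
      rw [h2] at h1
      have h3 := mul_le_mul_of_nonneg_left (Sfun_single_sub_le i j) hc.le
      have h4 : c⁻¹ * (x i - x j) ≤ c⁻¹ * (c * 2) :=
        mul_le_mul_of_nonneg_left (h1.trans h3) (inv_pos.mpr hc).le
      rw [hk] at h4
      show c⁻¹ * x i - c⁻¹ * x j ≤ 2
      linarith
  · rw [smul_smul, mul_inv_cancel₀ hc.ne', one_smul]

/-- The polar set of any real-valued function is bounded (test `u = ± e_j`), so of finite
volume. -/
theorem volume_polar_lt_top (n : ℕ) (h : En n → ℝ) :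
    volume (⋂ u ∈ Metric.sphere (0 : En n) 1, {x : En n | inner ℝ x u ≤ h u}) < ⊤ := by
  apply Bornology.IsBounded.measure_lt_top
  rw [isBounded_iff_forall_norm_le]
  refine ⟨Real.sqrt (∑ j : Fin n,
    (max (h (EuclideanSpace.single j 1)) (h (EuclideanSpace.single j (-1)))) ^ 2), ?_⟩
  intro x hx
  simp only [Set.mem_iInter, Set.mem_ofPred_eq, mem_sphere_zero_iff_norm] at hx
  rw [EuclideanSpace.norm_eq]
  apply Real.sqrt_le_sqrt
  apply Finset.sum_le_sum
  intro j _
  have h1 := hx (EuclideanSpace.single j 1) (by simp)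
  have h2 := hx (EuclideanSpace.single j (-1)) (by simp)
  rw [inner_eq_sum] at h1 h2
  have e : ∀ a : ℝ, ∑ k, x k * (EuclideanSpace.single j a : En n) k = x j * a := by
    intro a
    simp
  rw [e] at h1 h2
  have h3 : |x j| ≤ max (h (EuclideanSpace.single j 1)) (h (EuclideanSpace.single j (-1))) := by
    rw [abs_le]
    constructor
    · have := le_max_right (h (EuclideanSpace.single j 1)) (h (EuclideanSpace.single j (-1)))
      linarith
    · have := le_max_left (h (EuclideanSpace.single j 1)) (h (EuclideanSpace.single j (-1)))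
      linarith
  rw [Real.norm_eq_abs]
  exact pow_le_pow_left₀ (abs_nonneg _) h3 2

end Crest.Agent.Helper64.S0356
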